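import Vale.Agent.P331.F.BR
import Vale.Agent.P331.F.BX
import Vale.Agent.P331.F.BP
import Vale.Agent.P331.F.BE
import Vale.Agent.P331.F.Grd
import Vale.Agent.P331.F.Tele
import Vale.Agent.P331.F.Safe
import Vale.Agent.P331.F.Uniq
import Vale.Agent.P331.F.Sched
import Vale.Agent.P331.F.Mom
import Vale.Agent.P331.F.Hold
import Vale.Agent.P331.F.Ylow
import Vale.Agent.P331.F.Yup
import Vale.Agent.P331.F.Loss
import Vale.Agent.P331.F.Thin
import Vale.Agent.P331.F.Level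
import Vale.Agent.P331.F.Filt
import Vale.Agent.P331.F.Outer
import Vale.Agent.P331.F.Mask
import Vale.Agent.P331.F.Final

namespace Vale.Agent.Results.P331.Full

open MeasureTheory Vale.Agent.P331 Vale.Agent.P331.Full
open scoped NNReal ENNReal

theorem result : ∃ c : ℝ≥0, 0 < c ∧
    ∀ (α : Type) [Fintype α] [DecidableEq α] (M : Matroid α),
      ∃ (ρ : Type) (_ : MeasurableSpace ρ) (ν : Measure ρ) (_ : IsProbabilityMeasure ν)
        (r : Rule M ρ), ∀ D : α → Measure ℝ≥0, (∀ e, IsProbabilityMeasure (D e)) →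
          ∀ π : Adv α ρ, (c : ℝ≥0∞) * ∫⁻ q, opt M q.2.2 ∂law ν D ≤
            ∫⁻ q, r.gain q (π.ord q) ∂law ν D := by
  refine ⟨1 / 2 ^ 64, by positivity, fun α _ _ M => ?_⟩
  have hM := t_Mat M
  have hR := t_BR hM.1
  have hX := t_BX hM.1 hR
  have b : Bas (mrk M) := ⟨hM.1, hR, hX, t_BP hM.1 hR hX, t_BE α⟩
  have hG := t_Greedy b
  have hL := t_Level b (t_Ylow b (t_Safe b))
    (t_Yup b (t_Hold b (t_Sched b) (t_Mom b (t_Uniq b)))) (t_Loss b (t_Tele b)) (t_Thin b)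
  have h := t_Final M hM b.E (t_Outer b (t_Core b hL (t_Count b)) hG (t_Filt b hG))
    (t_Mask _) (t_Acc b (t_Ind b))
  have hc : ((1 / 2 ^ 64 : ℝ≥0) : ℝ≥0∞) = 1 / 2 ^ 64 := by
    rw [ENNReal.coe_div (by positivity)]
    simp
  rw [hc]
  exact h

end Vale.Agent.Results.P331.Full
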