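import Vale.Agent.P331.Main

namespace Vale.Agent.Results.P331.PairBlind

open MeasureTheory Vale.Agent.P331
open scoped NNReal ENNReal

theorem result (α : Type) [Fintype α] [DecidableEq α] (M : Matroid α) :
    ∃ (ρ : Type) (_ : MeasurableSpace ρ) (ν : Measure ρ) (_ : IsProbabilityMeasure ν)
      (r : Rule M ρ), ∀ D : α → Measure ℝ≥0, (∀ e, IsProbabilityMeasure (D e)) →
        ∀ π : Adv α ρ, π.PairBlind →
          (1 / 4 : ℝ≥0∞) * ∫⁻ q, opt M q.2.2 ∂law ν D ≤ ∫⁻ q, r.gain q (π.ord q) ∂law ν D := by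
  refine ⟨α → Bool, inferInstance, ProbabilityTheory.uniformOn Set.univ, inferInstance, rule M,
    fun D _ π hπ => ?_⟩
  rw [one_div, ← ENNReal.div_eq_inv_mul]
  exact ENNReal.div_le_of_le_mul' (main M D π hπ)

end Vale.Agent.Results.P331.PairBlind
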